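import Vale.Agent.P298.H265.Conn

/-!
# P298, block S1-GEO: rescaling of the abstract connection data
-/

open scoped ComplexConjugate

noncomputable section

namespace Vale.Agent.P298.H39

open H265

variable {M : Type} [AddCommGroup M] [Module ℂ M] {Q : ℂ → M →ₗ[ℂ] M →ₗ⋆[ℂ] ℂ}
  {D D' : M →ₗ[ℂ] M} {p q : ℕ} {U : Set ℂ} {w : Fin p → M} {u : Fin q → M} {η : M}

/-- the rescaled pairing -/
def scQ (c : ℝ) (Q : ℂ → M →ₗ[ℂ] M →ₗ⋆[ℂ] ℂ) (t : ℂ) : M →ₗ[ℂ] M →ₗ⋆[ℂ] ℂ := (c : ℂ) • Q t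

lemma scQ_apply (c : ℝ) (t : ℂ) (a b : M) : scQ c Q t a b = (c : ℂ) * Q t a b := rfl

lemma scQ_re (c : ℝ) (t : ℂ) (a b : M) : (scQ c Q t a b).re = c * (Q t a b).re := by
  rw [scQ_apply, Complex.re_ofReal_mul]

lemma scQ_zero {c : ℝ} {t : ℂ} {a b : M} (h : Q t a b = 0) : scQ c Q t a b = 0 := by
  rw [scQ_apply, h, mul_zero]

lemma scQ_zero' {c : ℝ} (hc : 0 < c) {t : ℂ} {a b : M} (h : scQ c Q t a b = 0) : Q t a b = 0 := by
  rw [scQ_apply] at h
  rcases mul_eq_zero.mp h with h | h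
  · exact absurd (Complex.ofReal_eq_zero.mp h) hc.ne'
  · exact h

lemma connData_scale (h : ConnData Q D D' U w u η) {c : ℝ} (hc : 0 < c) :
    ConnData (scQ c Q) D D' U w u η where
  isOpen := h.isOpen
  herm t ht a b := by
    rw [scQ_apply, scQ_apply, h.herm t ht a b, map_mul, Complex.conj_ofReal]
  deriv_Q t ht a b := by
    have h1 := (h.deriv_Q t ht a b).const_mul (c : ℂ)
    refine h1.congr_fderiv ?_
    refine ContinuousLinearMap.ext fun τ => ?_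
    simp only [ContinuousLinearMap.smul_apply, wd_apply, scQ_apply, smul_eq_mul]
    ring
  comm t ht a b := by rw [scQ_apply, scQ_apply, h.comm t ht a b]
  w_hol t ht i b := scQ_zero (h.w_hol t ht i b)
  η_hol t ht b := scQ_zero (h.η_hol t ht b)
  u_anti t ht j b := scQ_zero (h.u_anti t ht j b)
  w_u t ht i j := scQ_zero (h.w_u t ht i j)
  dw_u t ht i j := scQ_zero (h.dw_u t ht i j)
  dη_u t ht j := scQ_zero (h.dη_u t ht j)
  η_mem t ht := by
    obtain ⟨k, hk⟩ := h.η_mem t ht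
    exact ⟨k, fun b => scQ_zero (hk b)⟩
  w_pos t ht k hk := by rw [scQ_re]; exact mul_pos hc (h.w_pos t ht k hk)
  u_pos t ht k hk := by rw [scQ_re]; exact mul_pos hc (h.u_pos t ht k hk)
  neg t ht a h1 h2 := by
    rw [scQ_re]
    exact mul_nonpos_of_nonneg_of_nonpos hc.le
      (h.neg t ht a (fun i => scQ_zero' hc (h1 i)) fun j => scQ_zero' hc (h2 j))

lemma isX_scale {c : ℝ} {t : ℂ} {x : ℝ} (h : IsX Q D w η t x) :
    IsX (scQ c Q) D w η t (c * x) := by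
  obtain ⟨k, h1, h2⟩ := h
  refine ⟨k, fun i => scQ_zero (h1 i), ?_⟩
  rw [scQ_re, h2]
  ring

lemma isY_scale {c : ℝ} {t : ℂ} {y : ℝ} (h : IsY Q D u η t y) :
    IsY (scQ c Q) D u η t (c * y) := by
  obtain ⟨k, h1, h2⟩ := h
  refine ⟨k, fun i => scQ_zero (h1 i), ?_⟩
  rw [scQ_re, h2]

/-- rescaling -/
theorem hasConn_scale {N x y N' x' y' : ℂ → ℝ} {t0 : ℂ} (h : HasConn N x y t0) {c : ℝ}
    (hc : 0 < c) {V : Set ℂ} (hV : IsOpen V) (ht0 : t0 ∈ V) (hN : ∀ t ∈ V, N' t = c * N t)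
    (hx : ∀ t ∈ V, x' t = c * x t) (hy : ∀ t ∈ V, y' t = c * y t) : HasConn N' x' y' t0 := by
  obtain ⟨M, i1, i2, Q, D, D', p, q, U, w, u, η, ht, hd, hall⟩ := h
  have hd' : ConnData Q D D' (U ∩ V) w u η :=
    { isOpen := hd.isOpen.inter hV
      herm := fun t ht => hd.herm t ht.1
      deriv_Q := fun t ht => hd.deriv_Q t ht.1
      comm := fun t ht => hd.comm t ht.1
      w_hol := fun t ht => hd.w_hol t ht.1
      η_hol := fun t ht => hd.η_hol t ht.1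
      u_anti := fun t ht => hd.u_anti t ht.1
      w_u := fun t ht => hd.w_u t ht.1
      dw_u := fun t ht => hd.dw_u t ht.1
      dη_u := fun t ht => hd.dη_u t ht.1
      η_mem := fun t ht => hd.η_mem t ht.1
      w_pos := fun t ht => hd.w_pos t ht.1
      u_pos := fun t ht => hd.u_pos t ht.1
      neg := fun t ht => hd.neg t ht.1 }
  refine ⟨M, i1, i2, scQ c Q, D, D', p, q, U ∩ V, w, u, η, ⟨ht, ht0⟩, connData_scale hd' hc,
    fun t ht => ?_⟩
  obtain ⟨a1, a2, a3⟩ := hall t ht.1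
  refine ⟨?_, ?_, ?_⟩
  · rw [hN t ht.2, a1, scQ_re]
  · rw [hx t ht.2]
    exact isX_scale a2
  · rw [hy t ht.2]
    exact isY_scale a3

end Vale.Agent.P298.H39
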